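import Vale.Agent.P184.H369.Conj
import Vale.Agent.P184.H553.Four

/-!
# P184, row K4: only finitely many charged classes have a nonzero trace
-/

namespace Vale.Agent.P184.H369

open Vale.Agent.P184 (IsIdem tau)
open Vale.Agent.P184.H13 Vale.Agent.P184.H553

section sums

variable {M J K : Type*}

theorem co_sum {w : J ⊕ K → ℂ} (μ : J ⊕ K → M) (hw : Summable fun j => ‖w j‖) (m : M) :
    co w μ m = co (fun j => w (Sum.inl j)) (fun j => μ (Sum.inl j)) m +
      co (fun j => w (Sum.inr j)) (fun j => μ (Sum.inr j)) m := by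
  classical
  have h : Summable fun j => if μ j = m then w j else 0 :=
    Summable.of_norm (summable_ite hw fun j => μ j = m)
  rw [H553.co, H553.co, H553.co]
  exact Summable.tsum_sum (h.comp_injective Sum.inl_injective) (h.comp_injective Sum.inr_injective)

theorem T_sum [CommGroup M] {w : J ⊕ K → ℂ} (μ : J ⊕ K → M) (hw : Summable fun j => ‖w j‖)
    (χ : M →* Circle) :
    T w μ χ = T (fun j => w (Sum.inl j)) (fun j => μ (Sum.inl j)) χ +
      T (fun j => w (Sum.inr j)) (fun j => μ (Sum.inr j)) χ := by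
  have h := summable_term μ hw χ
  exact Summable.tsum_sum (h.comp_injective Sum.inl_injective) (h.comp_injective Sum.inr_injective)

theorem T_add [CommGroup M] {w w' : J → ℂ} {μ μ' : J → M} (hw : Summable fun j => ‖w j‖)
    (hw' : Summable fun j => ‖w' j‖) (χ : M →* Circle) :
    T w μ χ + T w' μ' χ = ∑' j, (w j * (χ (μ j) : ℂ) + w' j * (χ (μ' j) : ℂ)) :=
  (Summable.tsum_add (summable_term μ hw χ) (summable_term μ' hw' χ)).symm

theorem co_none {w : J → ℂ} {μ : J → M} {m : M} (h : ∀ j, μ j ≠ m) : co w μ m = 0 := by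
  classical
  rw [H553.co, tsum_congr (fun j => if_neg (h j)), tsum_zero]

end sums

section fixed

variable {G Q A : Type*} [Group G] [Group Q] [AddCommGroup A] (Z : Coc G Q A) (s : Q) {q : ℕ}
  (e : Matrix (Fin q) (Fin q) (G → ℂ))

/-- the weights -/
def ww : JJ Z s ⊕ JJ Z s → ℂ := Sum.elim (wt Z s e) (fun j => -wt Z s e j)

/-- the positions -/
noncomputable def mm : JJ Z s ⊕ JJ Z s → Abelianization (Hs Z s) × Multiplicative A :=
  Sum.elim (mu Z s) (fun j => ((mu Z s j).1, 1))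

variable {Z s e}

theorem summable_ww (hw : Summable fun j : JJ Z s => ‖wt Z s e j‖) :
    Summable fun j => ‖ww Z s e j‖ := by
  have h2 : Summable fun j : JJ Z s => ‖-wt Z s e j‖ := by
    simpa only [norm_neg] using hw
  exact (HasSum.sum (f := fun j => ‖ww Z s e j‖) hw.hasSum h2.hasSum).summable

theorem co_ww (hw : Summable fun j : JJ Z s => ‖wt Z s e j‖)
    {m : Abelianization (Hs Z s) × Multiplicative A} (hm : m.2 ≠ 1) :
    co (ww Z s e) (mm Z s) m = ∑' j : {j : JJ Z s // mu Z s j = m}, wt Z s e j := by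
  rw [co_eq, co_sum (mm Z s) (summable_ww hw) m,
    co_none (w := fun j => ww Z s e (Sum.inr j)) (μ := fun j => mm Z s (Sum.inr j)), add_zero]
  · rfl
  · intro j h
    refine hm ?_
    rw [← h]
    rfl

theorem T_ww (hw : Summable fun j : JJ Z s => ‖wt Z s e j‖)
    (χ : Abelianization (Hs Z s) × Multiplicative A →* Circle) :
    T (ww Z s e) (mm Z s) χ = ∑' j : JJ Z s, wt Z s e j *
      ((((χ.comp (MonoidHom.inl _ _)).comp Abelianization.of) (hh Z s j.1.1 j.1.2) : ℂ) *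
        (((χ.comp (MonoidHom.inr _ _)) (Multiplicative.ofAdd (cp Z s j.1.1 j.1.2)) : ℂ) - 1)) := by
  have h2 : Summable fun j : JJ Z s => ‖-wt Z s e j‖ := by
    simpa only [norm_neg] using hw
  refine (T_sum (mm Z s) (summable_ww hw) χ).trans ((T_add hw h2 χ).trans
    (tsum_congr fun j => ?_))
  have h6 : mu Z s j = ((mu Z s j).1, (1 : Multiplicative A)) *
      ((1 : Abelianization (Hs Z s)), (mu Z s j).2) := by
    rw [Prod.mk_mul_mk, mul_one, one_mul]
  have h7 : (χ (mu Z s j) : ℂ) = (χ ((mu Z s j).1, (1 : Multiplicative A)) : ℂ) *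
      (χ ((1 : Abelianization (Hs Z s)), (mu Z s j).2) : ℂ) := by
    rw [← Circle.coe_mul, ← map_mul, ← h6]
  change wt Z s e j * (χ (mu Z s j) : ℂ) +
    -wt Z s e j * (χ ((mu Z s j).1, (1 : Multiplicative A)) : ℂ) = wt Z s e j *
      ((χ ((mu Z s j).1, (1 : Multiplicative A)) : ℂ) *
        ((χ ((1 : Abelianization (Hs Z s)), (mu Z s j).2) : ℂ) - 1))
  rw [h7]
  ring

/-- the number of fixed points of `g` with nonzero charge is at most the length of `g` -/
theorem sum_le (hfin : ∀ g, {x | cp Z s g x ≠ 0}.Finite)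
    (hlen : ∀ g, (({x | cp Z s g x ≠ 0} : Set _).ncard : ℝ) ≤ len Z g) {f : G → ℝ}
    (hf0 : ∀ g, 0 ≤ f g) (hf : Summable fun g => f g * len Z g) :
    (Summable fun j : JJ Z s => f j.1.1) ∧ ∑' j : JJ Z s, f j.1.1 ≤ ∑' g, f g * len Z g := by
  let X : G → Set (G ⧸ Hs Z s) := fun g => {x | g • x = x ∧ cp Z s g x ≠ 0}
  have hXf : ∀ g, (X g).Finite := fun g => (hfin g).subset fun x hx => hx.2
  let E : (Σ g, X g) ≃ JJ Z s :=
    { toFun := fun p => (⟨(p.1, p.2.1), p.2.2⟩ :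
        {p : G × (G ⧸ Hs Z s) // p.1 • p.2 = p.2 ∧ cp Z s p.1 p.2 ≠ 0})
      invFun := fun j => ⟨j.1.1, ⟨j.1.2, j.2⟩⟩
      left_inv := fun _ => rfl
      right_inv := fun _ => rfl }
  have hc : ∀ g, ∑' _ : X g, f g = Nat.card (X g) * f g := by
    intro g
    rw [tsum_const, nsmul_eq_mul]
  have hle : ∀ g, ∑' _ : X g, f g ≤ f g * len Z g := by
    intro g
    rw [hc, mul_comm]
    refine mul_le_mul_of_nonneg_left (le_trans ?_ (hlen g)) (hf0 g)
    rw [Nat.card_coe_set_eq]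
    exact_mod_cast Set.ncard_le_ncard (fun x (hx : x ∈ X g) => hx.2) (hfin g)
  have hnn : ∀ g, 0 ≤ ∑' _ : X g, f g := fun g => tsum_nonneg fun _ => hf0 g
  have hs1 : Summable fun g => ∑' _ : X g, f g := Summable.of_nonneg_of_le hnn hle hf
  have hfib : ∀ g, Summable fun _ : X g => f g := by
    intro g
    have := (hXf g).to_subtype
    exact Summable.of_finite
  have hs2 : Summable fun p : Σ g, X g => f p.1 :=
    (summable_sigma_of_nonneg fun p => hf0 p.1).2 ⟨hfib, hs1⟩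
  refine ⟨(E.summable_iff (f := fun j : JJ Z s => f j.1.1)).1 hs2, ?_⟩
  rw [← E.tsum_eq (fun j : JJ Z s => f j.1.1)]
  change ∑' p : Σ g, X g, f p.1 ≤ _
  rw [hs2.tsum_sigma' hfib]
  exact hs1.tsum_le_tsum hle hf

/-- if `s` is not generated by the elements seen by the main part of `e`, then the coefficients
over `s` vanish -/
theorem vanish (hw : Summable fun j : JJ Z s => ‖wt Z s e j‖)
    (hfin : ∀ g, {x | cp Z s g x ≠ 0}.Finite)
    (hlen : ∀ g, (({x | cp Z s g x ≠ 0} : Set _).ncard : ℝ) ≤ len Z g)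
    (hc : ∀ g (x : G ⧸ Hs Z s), cp Z s g x ≠ 0 → ∃ u ∈ Subgroup.zpowers s,
      Z.c g (Z.pi x.out * u) ≠ 0)
    (hR : ∀ (χ : Hs Z s →* Circle) (κ : Multiplicative A →* Circle), ∃ n : ℤ,
      ∑' j : JJ Z s, wt Z s e j * ((χ (hh Z s j.1.1 j.1.2) : ℂ) *
        ((κ (Multiplicative.ofAdd (cp Z s j.1.1 j.1.2)) : ℂ) - 1)) = n)
    (S : Set G) [DecidablePred (· ∈ S)]
    (hS0 : Summable fun g => (if g ∈ S then 0 else ‖∑ i, e i i g‖) * len Z g)
    (hS : ∑' g, (if g ∈ S then 0 else ‖∑ i, e i i g‖) * len Z g < 1 / 4)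
    (hs : s ∉ Subgroup.closure ({y | ∃ g ∈ S, ∃ z, Z.c g z ≠ 0 ∧ y = z⁻¹ * Z.pi g * z} ∩
      (Subgroup.zpowers s : Set Q)))
    (t : G) (ht : t ∈ Hs Z s) (hts : Z.pi t = s) (b : Multiplicative A) :
    co (ww Z s e) (mm Z s) (Abelianization.of (⟨t, ht⟩ : Hs Z s), b) = 0 := by
  classical
  let _ : CommGroup (Subgroup.zpowers s) :=
    { (inferInstance : Group (Subgroup.zpowers s)) with
      mul_comm := by
        rintro ⟨_, a, rfl⟩ ⟨_, c, rfl⟩
        refine Subtype.ext ?_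
        change s ^ a * s ^ c = s ^ c * s ^ a
        rw [← zpow_add, ← zpow_add, add_comm] }
  set N : Set Q := {y | ∃ g ∈ S, ∃ z, Z.c g z ≠ 0 ∧ y = z⁻¹ * Z.pi g * z} ∩
      (Subgroup.zpowers s : Set Q) with hN
  have hsN : (⟨s, Subgroup.mem_zpowers s⟩ : Subgroup.zpowers s) ∉
      (Subgroup.closure N).comap (Subgroup.zpowers s).subtype := hs
  obtain ⟨ψ, hψ, hψs⟩ := exists_char_sub hsN
  let P : Hs Z s →* Subgroup.zpowers s :=
    (Z.pi.comp (Hs Z s).subtype).codRestrict (Subgroup.zpowers s) fun h => h.2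
  let Ψ : Abelianization (Hs Z s) × Multiplicative A →* Circle :=
    (Abelianization.lift (ψ.comp P)).comp (MonoidHom.fst _ _)
  have hΨ : ∀ (h : Hs Z s) (b : Multiplicative A), Ψ (Abelianization.of h, b) = ψ (P h) :=
    fun h b => Abelianization.lift_apply_of (ψ.comp P) h
  have hP : ∀ j : JJ Z s, j.1.1 ∈ S → ψ (P (hh Z s j.1.1 j.1.2)) = 1 := by
    intro j hj
    refine hψ _ ?_
    refine Subgroup.subset_closure ⟨?_, (P (hh Z s j.1.1 j.1.2)).2⟩
    obtain ⟨u, hu, hcu⟩ := hc j.1.1 j.1.2 j.2.2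
    refine ⟨j.1.1, hj, _, hcu, ?_⟩
    have h1 : ((P (hh Z s j.1.1 j.1.2) : Subgroup.zpowers s) : Q) =
        (Z.pi j.1.2.out)⁻¹ * Z.pi j.1.1 * Z.pi j.1.2.out := by
      change Z.pi ((j.1.1 • j.1.2).out⁻¹ * j.1.1 * j.1.2.out) = _
      rw [map_mul, map_mul, map_inv, j.2.1]
    have h2 : Commute u ((P (hh Z s j.1.1 j.1.2) : Subgroup.zpowers s) : Q) := by
      have h3 : (⟨u, hu⟩ : Subgroup.zpowers s) * P (hh Z s j.1.1 j.1.2) =
          P (hh Z s j.1.1 j.1.2) * ⟨u, hu⟩ := mul_comm _ _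
      exact congrArg Subtype.val h3
    change ((P (hh Z s j.1.1 j.1.2) : Subgroup.zpowers s) : Q) = _
    have h4 : (Z.pi j.1.2.out * u)⁻¹ * Z.pi j.1.1 * (Z.pi j.1.2.out * u) =
        u⁻¹ * ((Z.pi j.1.2.out)⁻¹ * Z.pi j.1.1 * Z.pi j.1.2.out) * u := by group
    rw [h4, ← h1, mul_assoc, ← h2.eq, inv_mul_cancel_left]
  refine co_twist (summable_ww hw) Ψ (fun χ => ?_) ?_
  swap
  · rw [hΨ]
    have h5 : P ⟨t, ht⟩ = ⟨s, Subgroup.mem_zpowers s⟩ := Subtype.ext hts
    rw [h5]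
    exact hψs
  refine int_eq_of_norm_lt ?_ ?_ ?_
  · rw [T_ww hw]
    exact hR _ _
  · rw [T_ww hw]
    exact hR _ _
  · rw [T_ww hw, T_ww hw]
    set a : JJ Z s → ℂ := fun j =>
      (((χ.comp (MonoidHom.inl _ _)).comp Abelianization.of) (hh Z s j.1.1 j.1.2) : ℂ) with ha
    set d : JJ Z s → ℂ := fun j =>
      ((χ.comp (MonoidHom.inr _ _)) (Multiplicative.ofAdd (cp Z s j.1.1 j.1.2)) : ℂ) with hd
    have ha1 : ∀ j, ‖a j‖ = 1 := fun j => Circle.norm_coe _
    have hd1 : ∀ j, ‖d j - 1‖ ≤ 2 := fun j => by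
      refine (norm_sub_le _ _).trans ?_
      rw [Circle.norm_coe, norm_one]
      norm_num
    have hp1 : ∀ j : JJ Z s, ‖(ψ (P (hh Z s j.1.1 j.1.2)) : ℂ) - 1‖ ≤ 2 := fun j => by
      refine (norm_sub_le _ _).trans ?_
      rw [Circle.norm_coe, norm_one]
      norm_num
    have e1 : ∀ j : JJ Z s, (((((Ψ * χ).comp (MonoidHom.inl _ _)).comp Abelianization.of)
        (hh Z s j.1.1 j.1.2) : Circle) : ℂ) = (ψ (P (hh Z s j.1.1 j.1.2)) : ℂ) * a j := by
      intro j
      rw [ha, ← Circle.coe_mul]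
      refine congrArg _ ?_
      change Ψ (Abelianization.of (hh Z s j.1.1 j.1.2), 1) *
        χ (Abelianization.of (hh Z s j.1.1 j.1.2), 1) = _
      rw [hΨ]
      rfl
    have e2 : ∀ j : JJ Z s, ((((Ψ * χ).comp (MonoidHom.inr _ _))
        (Multiplicative.ofAdd (cp Z s j.1.1 j.1.2)) : Circle) : ℂ) = d j := by
      intro j
      rw [hd]
      refine congrArg _ ?_
      change Ψ (1, Multiplicative.ofAdd (cp Z s j.1.1 j.1.2)) *
        χ (1, Multiplicative.ofAdd (cp Z s j.1.1 j.1.2)) = _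
      have h6 := hΨ 1 (Multiplicative.ofAdd (cp Z s j.1.1 j.1.2))
      rw [map_one, map_one, map_one] at h6
      rw [h6, one_mul]
      rfl
    have s1 : Summable fun j : JJ Z s => wt Z s e j *
        ((((((Ψ * χ).comp (MonoidHom.inl _ _)).comp Abelianization.of)
          (hh Z s j.1.1 j.1.2) : Circle) : ℂ) * (((((Ψ * χ).comp (MonoidHom.inr _ _))
        (Multiplicative.ofAdd (cp Z s j.1.1 j.1.2)) : Circle) : ℂ) - 1)) := by
      refine Summable.of_norm_bounded (hw.mul_right 2) fun j => ?_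
      rw [norm_mul, norm_mul, Circle.norm_coe, one_mul, e2]
      exact mul_le_mul_of_nonneg_left (hd1 j) (norm_nonneg _)
    have s2 : Summable fun j : JJ Z s => wt Z s e j * (a j * (d j - 1)) := by
      refine Summable.of_norm_bounded (hw.mul_right 2) fun j => ?_
      rw [norm_mul, norm_mul, ha1, one_mul]
      exact mul_le_mul_of_nonneg_left (hd1 j) (norm_nonneg _)
    rw [← s1.tsum_sub s2]
    have hb := sum_le hfin hlen (f := fun g => if g ∈ S then 0 else ‖∑ i, e i i g‖)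
      (fun g => by
        split_ifs
        · exact le_rfl
        · exact norm_nonneg _) hS0
    have hbd : ∀ j : JJ Z s, ‖wt Z s e j *
        ((((((Ψ * χ).comp (MonoidHom.inl _ _)).comp Abelianization.of)
          (hh Z s j.1.1 j.1.2) : Circle) : ℂ) * (((((Ψ * χ).comp (MonoidHom.inr _ _))
        (Multiplicative.ofAdd (cp Z s j.1.1 j.1.2)) : Circle) : ℂ) - 1)) -
        wt Z s e j * (a j * (d j - 1))‖ ≤
        (if j.1.1 ∈ S then 0 else ‖∑ i, e i i j.1.1‖) * 4 := by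
      intro j
      rw [e1, e2]
      have e3 : wt Z s e j * ((ψ (P (hh Z s j.1.1 j.1.2)) : ℂ) * a j * (d j - 1)) -
          wt Z s e j * (a j * (d j - 1)) =
          wt Z s e j * (a j * ((d j - 1) * ((ψ (P (hh Z s j.1.1 j.1.2)) : ℂ) - 1))) := by ring
      rw [e3]
      by_cases hj : j.1.1 ∈ S
      · rw [if_pos hj, hP j hj, Circle.coe_one, sub_self, mul_zero, mul_zero, mul_zero, norm_zero,
          zero_mul]
      · rw [if_neg hj, norm_mul, norm_mul, norm_mul, ha1, one_mul]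
        refine mul_le_mul_of_nonneg_left ?_ (norm_nonneg _)
        calc ‖d j - 1‖ * ‖(ψ (P (hh Z s j.1.1 j.1.2)) : ℂ) - 1‖ ≤ 2 * 2 :=
              mul_le_mul (hd1 j) (hp1 j) (norm_nonneg _) (by norm_num)
          _ = 4 := by norm_num
    refine lt_of_le_of_lt (tsum_of_norm_bounded (hb.1.mul_right 4).hasSum hbd) ?_
    rw [tsum_mul_right]
    have hb2 := hb.2
    have h7 := hS
    linarith

end fixed

/-- over a given `s` there are only finitely many classes -/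
theorem finite_over.{u, v, w} (hR : RowR.{u, v, w}) (hK1 : RowK1.{u, v, w})
    (hK3 : RowK3.{u, v, w}) (hF : RowFour.{max u w, u}) {G : Type u} {Q : Type v} {A : Type w}
    [Group G] [Group Q] [AddCommGroup A] (Z : Coc G Q A)
    (hcomm : ∀ a b, Z.pi a = 1 → Z.pi b = 1 → Commute a b) {q : ℕ}
    {e : Matrix (Fin q) (Fin q) (G → ℂ)} (he : IsIdem e) (hws : WSum Z e) (s : Q) :
    {C : ConjClasses G | ∃ t : G, ConjClasses.mk t = C ∧ Z.pi t = s ∧
      cp Z s t ((1 : G) : G ⧸ Hs Z s) ≠ 0 ∧ tau C e ≠ 0}.Finite := by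
  classical
  obtain ⟨hw, h3⟩ := hK3 Z hcomm q e hws s
  have h4 := (hF (ww Z s e) (mm Z s) (summable_ww hw) (fun χ => by
    obtain ⟨n, hn⟩ := hR Z q e he hws s ((χ.comp (MonoidHom.inl _ _)).comp Abelianization.of)
      (χ.comp (MonoidHom.inr _ _))
    exact ⟨n, (T_ww hw χ).trans hn⟩)).2
  refine (h4.image fun m => if h : ∃ t : G, ∃ ht : t ∈ Hs Z s, Z.pi t = s ∧
    Abelianization.of (⟨t, ht⟩ : Hs Z s) = m.1 then ConjClasses.mk h.choose
      else ConjClasses.mk 1).subset ?_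
  rintro C ⟨t, rfl, rfl, hcp, htau⟩
  have ht : t ∈ Hs Z (Z.pi t) := Subgroup.mem_zpowers _
  refine ⟨(Abelianization.of ⟨t, ht⟩, Multiplicative.ofAdd
    (cp Z (Z.pi t) t ((1 : G) : G ⧸ Hs Z (Z.pi t)))), ?_, ?_⟩
  · change ∑' j : {j // mm Z (Z.pi t) j = _}, ww Z (Z.pi t) e j ≠ 0
    rw [co_eq, co_ww hw]
    · obtain ⟨n, hn, h5⟩ := h3 t ht rfl hcp
      rw [h5]
      exact mul_ne_zero (Nat.cast_ne_zero.2 hn.ne') htau
    · intro h
      exact hcp (Multiplicative.ofAdd.injective h)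
  · have h : ∃ t' : G, ∃ ht' : t' ∈ Hs Z (Z.pi t), Z.pi t' = Z.pi t ∧
        Abelianization.of (⟨t', ht'⟩ : Hs Z (Z.pi t)) =
          Abelianization.of (⟨t, ht⟩ : Hs Z (Z.pi t)) := ⟨t, ht, rfl, rfl⟩
    refine (dif_pos h).trans ?_
    obtain ⟨ht', _, h6⟩ := h.choose_spec
    exact (ConjClasses.mk_eq_mk_iff_isConj.2 ((hK1 Z hcomm t ht).1 ⟨h.choose, ht'⟩ h6)).symm

theorem rowK4.{u, v, w} : RowK4.{u, v, w} := by
  intro hR hK1 hK2 hK3 _ hF G Q A _ _ _ Z hcomm hsurj q e he hws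
  classical
  obtain ⟨_, hK2⟩ := hK2 Z
  have hsum : Summable fun g => ‖∑ i, e i i g‖ * len Z g := by
    refine Summable.of_nonneg_of_le (fun g => mul_nonneg (norm_nonneg _) (Nat.cast_nonneg _))
      (fun g => ?_) (summable_sum fun i (_ : i ∈ Finset.univ) => hws i i)
    rw [← Finset.sum_mul]
    have h0 : (0 : ℝ) ≤ len Z g := Nat.cast_nonneg _
    exact mul_le_mul (norm_sum_le _ _) (by linarith) h0
      (Finset.sum_nonneg fun i _ => norm_nonneg _)
  obtain ⟨S, hS⟩ := tail hsum (show (0 : ℝ) < 1 / 4 by norm_num)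
  have hS0 := summable_tail hsum (fun g => mul_nonneg (norm_nonneg _) (Nat.cast_nonneg _)) S
  have heq : (fun g => (if g ∈ (S : Set G) then 0 else ‖∑ i, e i i g‖) * len Z g) =
      fun g => if g ∈ S then 0 else ‖∑ i, e i i g‖ * len Z g := by
    funext g
    by_cases hg : g ∈ S
    · rw [if_pos hg, if_pos (Finset.mem_coe.2 hg), zero_mul]
    · rw [if_neg hg, if_neg fun h => hg (Finset.mem_coe.1 h)]
  set N : Set Q := {y | ∃ g ∈ (S : Set G), ∃ z, Z.c g z ≠ 0 ∧ y = z⁻¹ * Z.pi g * z} with hN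
  have hNf : N.Finite := by
    refine (S.finite_toSet.biUnion fun g _ =>
      (Z.fin g).image fun z => z⁻¹ * Z.pi g * z).subset ?_
    rintro y ⟨g, hg, z, hz, rfl⟩
    exact Set.mem_biUnion hg ⟨z, hz, rfl⟩
  have hU : (⋃ N' ∈ {N' : Set Q | N' ⊆ N},
      {s : Q | Subgroup.zpowers s = Subgroup.closure N'}).Finite :=
    hNf.finite_subsets.biUnion fun N' _ => finite_gen _
  refine (hU.biUnion fun s _ => finite_over hR hK1 hK3 hF Z hcomm he hws s).subset ?_
  rintro C ⟨hC, t, rfl, x, hx⟩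
  obtain ⟨p, rfl⟩ := hsurj x
  have hmk : ConjClasses.mk (p⁻¹ * t * p) = ConjClasses.mk t :=
    ConjClasses.mk_eq_mk_iff_isConj.2 (isConj_iff.2 ⟨p, by group⟩)
  rw [← D_conj] at hx
  rw [← hmk] at hC ⊢
  generalize p⁻¹ * t * p = t' at hx hC
  have ht' : t' ∈ Hs Z (Z.pi t') := Subgroup.mem_zpowers _
  have hcp : cp Z (Z.pi t') t' ((1 : G) : G ⧸ Hs Z (Z.pi t')) ≠ 0 := by
    rw [(hK2 (Z.pi t')).2.2.2.2.1]
    rw [Coc.D] at hx
    simpa only [mul_one] using hx
  refine Set.mem_biUnion ?_ ⟨t', rfl, rfl, hcp, hC⟩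
  by_contra hs
  obtain ⟨hw, h3⟩ := hK3 Z hcomm q e hws (Z.pi t')
  have hs' : Z.pi t' ∉ Subgroup.closure (N ∩ (Subgroup.zpowers (Z.pi t') : Set Q)) := by
    intro h
    refine hs (Set.mem_biUnion (x := N ∩ (Subgroup.zpowers (Z.pi t') : Set Q))
      Set.inter_subset_left ?_)
    refine le_antisymm ?_ ?_
    · rwa [Subgroup.zpowers_le]
    · rw [Subgroup.closure_le]
      exact Set.inter_subset_right
  have h7 := vanish hw (hK2 (Z.pi t')).2.1 (hK2 (Z.pi t')).2.2.1 (hK2 (Z.pi t')).2.2.2.2.2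
    (hR Z q e he hws (Z.pi t')) (S : Set G) (by rw [heq]; exact hS0) (by rw [heq]; exact hS)
    hs' t' ht' rfl
    (Multiplicative.ofAdd (cp Z (Z.pi t') t' ((1 : G) : G ⧸ Hs Z (Z.pi t'))))
  rw [co_ww hw fun h => hcp (Multiplicative.ofAdd.injective h)] at h7
  obtain ⟨n, hn, h5⟩ := h3 t' ht' rfl hcp
  rw [h5] at h7
  exact mul_ne_zero (Nat.cast_ne_zero.2 hn.ne') hC h7

end Vale.Agent.P184.H369
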