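import Vale.Agent.P184.H13.Rows2

/-!
# P184, row K4: conjugation and generators of cyclic groups
-/

namespace Vale.Agent.P184.H369

open Vale.Agent.P184.H13

section conj

variable {G Q A : Type*} [Group G] [Group Q] [AddCommGroup A] (Z : Coc G Q A)

theorem c_one (y : Q) : Z.c 1 y = 0 := by
  have h := Z.mul 1 1 y
  rw [mul_one, map_one, one_mul] at h
  exact left_eq_add.1 h

theorem c_conj (p t : G) (y : Q) :
    Z.c (p⁻¹ * t * p) y = Z.c t (Z.pi p * y) +
      (Z.c p⁻¹ (Z.pi t * (Z.pi p * y)) - Z.c p⁻¹ (Z.pi p * y)) := by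
  have h1 := Z.mul (p⁻¹ * t) p y
  have h2 := Z.mul p⁻¹ t (Z.pi p * y)
  have h3 := Z.mul p⁻¹ p y
  rw [inv_mul_cancel, c_one] at h3
  rw [h1, h2, eq_neg_of_add_eq_zero_right h3.symm]
  abel

theorem fin_sub (g : G) (s x : Q) :
    Function.HasFiniteSupport fun u : Subgroup.zpowers s => Z.c g (u * x) := by
  refine (Z.fin g).preimage (f := fun u : Subgroup.zpowers s => (u : Q) * x) ?_
  intro a _ b _ h
  exact Subtype.ext (mul_right_cancel h)

theorem D_conj (t p : G) : Z.D (p⁻¹ * t * p) 1 = Z.D t (Z.pi p) := by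
  have hs : Z.pi (p⁻¹ * t * p) = (Z.pi p)⁻¹ * Z.pi t * Z.pi p := by
    rw [map_mul, map_mul, map_inv]
  have hpow : ∀ k : ℤ, (Z.pi p)⁻¹ * (Z.pi t) ^ k * Z.pi p = (Z.pi (p⁻¹ * t * p)) ^ k := by
    intro k
    have h := conj_zpow (i := k) (a := (Z.pi p)⁻¹) (b := Z.pi t)
    rw [inv_inv] at h
    rw [hs, h]
  have hmem : ∀ u : Subgroup.zpowers (Z.pi t),
      (Z.pi p)⁻¹ * u * Z.pi p ∈ Subgroup.zpowers (Z.pi (p⁻¹ * t * p)) := by
    rintro ⟨_, k, rfl⟩
    exact ⟨k, (hpow k).symm⟩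
  have hbij : Function.Bijective fun u : Subgroup.zpowers (Z.pi t) =>
      (⟨(Z.pi p)⁻¹ * u * Z.pi p, hmem u⟩ : Subgroup.zpowers (Z.pi (p⁻¹ * t * p))) := by
    constructor
    · intro a b h
      have h1 := congrArg Subtype.val h
      exact Subtype.ext (mul_left_cancel (mul_right_cancel h1))
    · rintro ⟨_, k, rfl⟩
      exact ⟨⟨_, k, rfl⟩, Subtype.ext (hpow k)⟩
  have h0 : Z.D (p⁻¹ * t * p) 1 = ∑ᶠ u : Subgroup.zpowers (Z.pi t),
      (Z.c t (u * Z.pi p) + (Z.c p⁻¹ (Z.pi t * (u * Z.pi p)) - Z.c p⁻¹ (u * Z.pi p))) := by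
    refine (finsum_eq_of_bijective _ hbij fun u => ?_).symm
    rw [mul_one, c_conj]
    dsimp only
    have h1 : Z.pi p * ((Z.pi p)⁻¹ * (u : Q) * Z.pi p) = u * Z.pi p := by group
    rw [h1]
  have hshift : ∑ᶠ u : Subgroup.zpowers (Z.pi t), Z.c p⁻¹ (Z.pi t * (u * Z.pi p)) =
      ∑ᶠ u : Subgroup.zpowers (Z.pi t), Z.c p⁻¹ (u * Z.pi p) := by
    refine finsum_eq_of_bijective
      (fun u : Subgroup.zpowers (Z.pi t) => ⟨Z.pi t, Subgroup.mem_zpowers _⟩ * u)
      (Group.mulLeft_bijective _) fun u => ?_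
    rw [Subgroup.coe_mul, mul_assoc]
  have hfs : Function.HasFiniteSupport fun u : Subgroup.zpowers (Z.pi t) =>
      Z.c p⁻¹ (Z.pi t * (u * Z.pi p)) := by
    refine (Z.fin p⁻¹).preimage
      (f := fun u : Subgroup.zpowers (Z.pi t) => Z.pi t * ((u : Q) * Z.pi p)) ?_
    intro a _ b _ h
    exact Subtype.ext (mul_right_cancel (mul_left_cancel h))
  have hfd : Function.HasFiniteSupport fun u : Subgroup.zpowers (Z.pi t) =>
      Z.c p⁻¹ (Z.pi t * (u * Z.pi p)) - Z.c p⁻¹ (u * Z.pi p) := by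
    refine (hfs.union (fin_sub Z p⁻¹ (Z.pi t) (Z.pi p))).subset fun u hu => ?_
    by_contra hn
    rw [Set.mem_union, Function.mem_support, Function.mem_support, not_or, not_not, not_not] at hn
    refine hu ?_
    change Z.c p⁻¹ (Z.pi t * (u * Z.pi p)) - Z.c p⁻¹ (u * Z.pi p) = 0
    rw [hn.1, hn.2, sub_zero]
  rw [h0, finsum_add_distrib (fin_sub Z t (Z.pi t) (Z.pi p)) hfd,
    finsum_sub_distrib hfs (fin_sub Z p⁻¹ (Z.pi t) (Z.pi p)), hshift, sub_self, add_zero]
  rfl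

end conj

/-- a cyclic group has finitely many generators -/
theorem finite_gen {Q : Type*} [Group Q] (C : Subgroup Q) :
    {s : Q | Subgroup.zpowers s = C}.Finite := by
  by_cases h : ∃ s0 : Q, Subgroup.zpowers s0 = C
  swap
  · refine Set.finite_empty.subset fun s hs => ?_
    exact (h ⟨s, hs⟩).elim
  obtain ⟨s0, rfl⟩ := h
  by_cases hf : IsOfFinOrder s0
  · have h1 : (Subgroup.zpowers s0 : Set Q).Finite := by
      have := (finite_zpowers (a := s0)).2 hf
      exact this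
    refine h1.subset fun s hs => ?_
    have h2 : s ∈ Subgroup.zpowers s := Subgroup.mem_zpowers s
    rw [show Subgroup.zpowers s = Subgroup.zpowers s0 from hs] at h2
    exact h2
  · refine (Set.toFinite {s0, s0⁻¹}).subset fun s hs => ?_
    have h2 : s ∈ Subgroup.zpowers s := Subgroup.mem_zpowers s
    have h3 : s0 ∈ Subgroup.zpowers s0 := Subgroup.mem_zpowers s0
    rw [show Subgroup.zpowers s = Subgroup.zpowers s0 from hs] at h2
    rw [← show Subgroup.zpowers s = Subgroup.zpowers s0 from hs] at h3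
    obtain ⟨a, rfl⟩ := h2
    obtain ⟨b, hb⟩ := h3
    have h4 : s0 ^ (a * b) = s0 ^ (1 : ℤ) := by
      rw [zpow_mul, zpow_one]
      exact hb
    have h5 : a * b = 1 := (injective_zpow_iff_not_isOfFinOrder.2 hf) h4
    rcases Int.eq_one_or_neg_one_of_mul_eq_one h5 with rfl | rfl
    · left
      exact zpow_one s0
    · right
      exact zpow_neg_one s0

end Vale.Agent.P184.H369
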